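import Mathlib

namespace Vale.Agent.P121

open MeasureTheory Set Filter Function
open scoped ENNReal NNReal

abbrev E3 := EuclideanSpace ℝ (Fin 3)
abbrev Lab := Option (Bool × Bool)

def lab (t : Bool × Fin 3) : Lab := ![none, some (t.1, true), some (t.1, false)] t.2

noncomputable def cst (x y z : E3) : ℝ≥0∞ := (edist x y)⁻¹ + (edist x z)⁻¹ + (edist y z)⁻¹

lemma cst_meas : Measurable fun p : E3 × E3 × E3 => cst p.1 p.2.1 p.2.2 := by
  unfold cst; fun_prop

lemma cst_cyc (x y z : E3) : cst y z x = cst x y z := by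
  rw [cst, cst, edist_comm y x, edist_comm z x]; ring

structure Data (A : Set E3) (P : Lab → E3 → E3) (ψ : Lab → E3 → ℝ) (K : ℝ≥0) : Prop where
  cpt : IsCompact A
  pos : volume A ≠ 0
  meas : ∀ l, Measurable (P l)
  cont : ∀ l, ContinuousOn (P l) A
  p0 : ∀ a ∈ A, P none a = a
  anti : ∀ l, ∀ a ∈ A, ∀ a' ∈ A, ‖a - a'‖ ≤ K * ‖P l a - P l a'‖
  disj : ∀ l l', ∀ a ∈ A, ∀ a' ∈ A, P l a = P l' a' → l = l'
  cψ : ∀ l, ContinuousOn (ψ l) A
  le : ∀ l1 l2 l3, ∀ a1 ∈ A, ∀ a2 ∈ A, ∀ a3 ∈ A,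
    .ofReal (ψ l1 a1) + .ofReal (ψ l2 a2) + .ofReal (ψ l3 a3) ≤ cst (P l1 a1) (P l2 a2) (P l3 a3)
  rigid : ∀ l2 l3, ∀ a1 ∈ A, ∀ a2 ∈ A, ∀ a3 ∈ A,
    .ofReal (ψ none a1) + .ofReal (ψ l2 a2) + .ofReal (ψ l3 a3) =
      cst (P none a1) (P l2 a2) (P l3 a3) → l2 ≠ none ∧ a2 = a1
  eq : ∀ j, ∀ a ∈ A, .ofReal (ψ none a) + .ofReal (ψ (some (j, true)) a) +
    .ofReal (ψ (some (j, false)) a) = cst (P none a) (P (some (j, true)) a) (P (some (j, false)) a)

variable {A : Set E3} {P : Lab → E3 → E3} {ψ : Lab → E3 → ℝ} {K : ℝ≥0}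

lemma Data.inj (h : Data A P ψ K) (l : Lab) : InjOn (P l) A := fun a ha a' ha' e => by
  have := h.anti l a ha a' ha'
  rw [e, sub_self, norm_zero, mul_zero] at this
  exact sub_eq_zero.1 (norm_le_zero_iff.1 this)

lemma Data.lip (h : Data A P ψ K) (l : Lab) :
    LipschitzOnWith K (invFunOn (P l) A) (P l '' A) := by
  refine LipschitzOnWith.of_dist_le_mul ?_
  rintro _ ⟨a, ha, rfl⟩ _ ⟨a', ha', rfl⟩
  rw [(h.inj l).leftInvOn_invFunOn ha, (h.inj l).leftInvOn_invFunOn ha', dist_eq_norm, dist_eq_norm]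
  exact h.anti l a ha a' ha'

lemma Data.null (h : Data A P ψ K) (l : Lab) {N : Set E3} (hN : volume N = 0) :
    volume (P l ⁻¹' N ∩ A) = 0 := by
  have a1 : (volume : Measure E3) ≪ μH[(3 : ℕ)] := Measure.absolutelyContinuous_isAddHaarMeasure _ _
  have a2 : (μH[(3 : ℕ)] : Measure E3) ≪ volume := Measure.absolutelyContinuous_isAddHaarMeasure _ _
  apply a1
  have h1 := ((h.lip l).mono (inter_subset_right (s := N))).hausdorffMeasure_image_le
    (d := (3 : ℕ)) (by positivity)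
  rw [measure_mono_null inter_subset_left (a2 hN), mul_zero] at h1
  refine measure_mono_null ?_ (le_zero_iff.1 h1)
  rintro a ⟨h2, ha⟩
  exact ⟨P l a, ⟨h2, mem_image_of_mem _ ha⟩, (h.inj l).leftInvOn_invFunOn ha⟩

theorem Data.main (h : Data A P ψ K) : ∃ μ : Measure E3, IsProbabilityMeasure μ ∧ μ ≪ volume ∧
    ∃ π : Measure (E3 × E3 × E3), IsProbabilityMeasure π ∧ π.map (fun p => p.1) = μ ∧
      π.map (fun p => p.2.1) = μ ∧ π.map (fun p => p.2.2) = μ ∧
      ∫⁻ p, cst p.1 p.2.1 p.2.2 ∂π < ∞ ∧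
      ∀ T2 T3 : E3 → E3, Measurable T2 → Measurable T3 → μ.map T2 = μ → μ.map T3 = μ →
        ∫⁻ p, cst p.1 p.2.1 p.2.2 ∂π < ∫⁻ x, cst x (T2 x) (T3 x) ∂μ := by
  classical
  have mA : MeasurableSet A := h.cpt.measurableSet
  set ν : Measure E3 := ProbabilityTheory.cond volume A with hν
  haveI : IsProbabilityMeasure ν :=
    ProbabilityTheory.cond_isProbabilityMeasure_of_finite h.pos h.cpt.measure_lt_top.ne
  have νA : ∀ᵐ a ∂ν, a ∈ A := ProbabilityTheory.ae_cond_mem mA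
  have νi : ∀ s, ν s = ν (s ∩ A) := fun s => (measure_inter_conull' (by
    simpa using measure_mono_null (diff_subset_compl _ _) (mem_ae_iff.1 νA))).symm
  set μ : Measure E3 := ∑ t : Bool × Fin 3, (6 : ℝ≥0∞)⁻¹ • ν.map (P (lab t)) with hμ
  have μa : ∀ s, MeasurableSet s → μ s = ∑ t : Bool × Fin 3, (6 : ℝ≥0∞)⁻¹ * ν (P (lab t) ⁻¹' s) :=
    fun s hs => by
      simp only [hμ, Measure.coe_finset_sum, Finset.sum_apply, Measure.smul_apply, smul_eq_mul,
        Measure.map_apply (h.meas _) hs]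
  have six : ∑ _t : Bool × Fin 3, (6 : ℝ≥0∞)⁻¹ * 1 = 1 := by
    simp; exact ENNReal.mul_inv_cancel (by norm_num) (by norm_num)
  have pμ : IsProbabilityMeasure μ := ⟨by rw [μa _ MeasurableSet.univ]; simpa using six⟩
  set F : Bool × Fin 3 → E3 → E3 × E3 × E3 := fun t a =>
    (P (lab t) a, P (lab (t.1, t.2 + 1)) a, P (lab (t.1, t.2 + 2)) a) with hF
  have mF : ∀ t, Measurable (F t) := fun t => (h.meas _).prodMk ((h.meas _).prodMk (h.meas _))
  set π : Measure (E3 × E3 × E3) := ∑ t : Bool × Fin 3, (6 : ℝ≥0∞)⁻¹ • ν.map (F t) with hπ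
  have marg : ∀ (g : E3 × E3 × E3 → E3) (i : Fin 3), Measurable g →
      (∀ t, g ∘ F t = P (lab (t.1, t.2 + i))) → π.map g = μ := fun g i hg hi => by
    ext s hs
    rw [μa s hs, Measure.map_apply hg hs]
    simp only [hπ, Measure.coe_finset_sum, Finset.sum_apply, Measure.smul_apply, smul_eq_mul,
      Measure.map_apply (mF _) (hg hs), ← preimage_comp, hi]
    exact Equiv.sum_comp (Equiv.prodCongr (Equiv.refl Bool) (Equiv.addRight i))
      (fun t => (6 : ℝ≥0∞)⁻¹ * ν (P (lab t) ⁻¹' s))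
  have m1 := marg (fun p => p.1) 0 (by fun_prop) (fun t => by rw [add_zero]; rfl)
  have m2 := marg (fun p => p.2.1) 1 (by fun_prop) (fun t => rfl)
  have m3 := marg (fun p => p.2.2) 2 (by fun_prop) (fun t => rfl)
  have mI : ∀ l, MeasurableSet (P l '' A) := fun l =>
    (h.cpt.image_of_continuousOn (h.cont l)).measurableSet
  set φ : E3 → ℝ≥0∞ := fun x => ∑ l, (P l '' A).piecewise
    (fun x => ENNReal.ofReal (ψ l (invFunOn (P l) A x))) (fun _ => 0) x with hφ
  have mφ : Measurable φ := Finset.measurable_sum _ fun l _ =>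
    ContinuousOn.measurable_piecewise (ENNReal.continuous_ofReal.comp_continuousOn
      ((h.cψ l).comp (h.lip l).continuousOn (by
        rintro _ ⟨a, ha, rfl⟩; rw [(h.inj l).leftInvOn_invFunOn ha]; exact ha)))
      continuousOn_const (mI l)
  have φP : ∀ l, ∀ a ∈ A, φ (P l a) = .ofReal (ψ l a) := fun l a ha => by
    rw [hφ]; dsimp only
    rw [Finset.sum_eq_single l, piecewise_eq_of_mem _ _ _ (mem_image_of_mem _ ha),
      (h.inj l).leftInvOn_invFunOn ha]
    · intro l' _ hl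
      rw [piecewise_eq_of_notMem]
      rintro ⟨a', ha', e⟩
      exact hl (h.disj _ _ _ ha' _ ha e)
    · simp
  set I := ∫⁻ x, φ x ∂μ with hI
  have mS : Measurable fun p : E3 × E3 × E3 => φ p.1 + φ p.2.1 + φ p.2.2 := by fun_prop
  have c1 : ∫⁻ p, cst p.1 p.2.1 p.2.2 ∂π = ∫⁻ p, (φ p.1 + φ p.2.1 + φ p.2.2) ∂π := by
    simp only [hπ, lintegral_finset_sum_measure, lintegral_smul_measure]
    refine Finset.sum_congr rfl fun t _ => ?_
    rw [lintegral_map cst_meas (mF t), lintegral_map mS (mF t)]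
    congr 1
    refine lintegral_congr_ae (νA.mono fun a ha => ?_)
    obtain ⟨j, k⟩ := t
    have := h.eq j a ha
    simp only [hF, φP _ a ha]
    fin_cases k
    · exact this.symm
    · exact (cst_cyc _ _ _).trans (this.symm.trans (by simp [lab]; ring))
    · exact (cst_cyc _ _ _).symm.trans (this.symm.trans (by simp [lab]; ring))
  have c2 : ∫⁻ p, (φ p.1 + φ p.2.1 + φ p.2.2) ∂π = I + I + I := by
    rw [lintegral_add_left (by fun_prop), lintegral_add_left (by fun_prop), hI]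
    congr 1
    · congr 1
      · rw [← m1, lintegral_map mφ (by fun_prop)]
      · rw [← m2, lintegral_map mφ (by fun_prop)]
    · rw [← m3, lintegral_map mφ (by fun_prop)]
  have mU : MeasurableSet (⋃ l, P l '' A) := MeasurableSet.iUnion mI
  have μU : ∀ᵐ x ∂μ, x ∈ ⋃ l, P l '' A := by
    rw [ae_iff]
    refine (μa _ mU.compl).trans (Finset.sum_eq_zero fun t _ => ?_)
    rw [νi, show P (lab t) ⁻¹' (⋃ l, P l '' A)ᶜ ∩ A = ∅ from eq_empty_of_forall_notMem
      fun a ha => ha.1 (mem_iUnion.2 ⟨_, mem_image_of_mem _ ha.2⟩), measure_empty, mul_zero]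
  have Ifin : I < ∞ := by
    have : ∀ l, ∃ C, ∀ a ∈ A, ψ l a ≤ C := fun l => by
      obtain ⟨C, hC⟩ := h.cpt.bddAbove_image (h.cψ l)
      exact ⟨C, fun a ha => hC (mem_image_of_mem _ ha)⟩
    choose C hC using this
    refine (lintegral_mono_ae (g := fun _ => ∑ l, ENNReal.ofReal (C l))
      (μU.mono fun x hx => ?_)).trans_lt ?_
    · obtain ⟨l, a, ha, rfl⟩ := mem_iUnion.1 hx
      rw [φP l a ha]
      exact (ENNReal.ofReal_le_ofReal (hC l a ha)).trans
        (Finset.single_le_sum (f := fun l => ENNReal.ofReal (C l)) (fun _ _ => zero_le)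
          (Finset.mem_univ l))
    · simp
  have I3 : I + I + I < ∞ := by simp [Ifin]
  refine ⟨μ, pμ, Measure.AbsolutelyContinuous.mk fun N mN hN => ?_, π, ⟨?_⟩, m1, m2, m3,
    by rw [c1, c2]; exact I3, fun T2 T3 h2 h3 e2 e3 => ?_⟩
  · rw [μa N mN]
    refine Finset.sum_eq_zero fun t _ => ?_
    rw [νi, ProbabilityTheory.cond_absolutelyContinuous (h.null _ hN), mul_zero]
  · have := congrArg (fun m : Measure E3 => m univ) m1
    simpa [Measure.map_apply measurable_fst MeasurableSet.univ] using this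
  rw [c1, c2]
  by_contra hc
  push Not at hc
  have u2 : ∀ᵐ x ∂μ, T2 x ∈ ⋃ l, P l '' A := ae_of_ae_map h2.aemeasurable (e2.symm ▸ μU)
  have u3 : ∀ᵐ x ∂μ, T3 x ∈ ⋃ l, P l '' A := ae_of_ae_map h3.aemeasurable (e3.symm ▸ μU)
  have c3 : ∫⁻ x, (φ x + φ (T2 x) + φ (T3 x)) ∂μ = I + I + I := by
    rw [lintegral_add_left (by fun_prop), lintegral_add_left (by fun_prop),
      ← lintegral_map mφ h2, ← lintegral_map mφ h3, e2, e3]
  have hae := ae_eq_of_ae_le_of_lintegral_le (μ := μ) (f := fun x => φ x + φ (T2 x) + φ (T3 x))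
    (g := fun x => cst x (T2 x) (T3 x)) (by
      filter_upwards [μU, u2, u3] with x h1 h2 h3
      obtain ⟨l1, a1, b1, rfl⟩ := mem_iUnion.1 h1
      obtain ⟨l2, a2, b2, d2⟩ := mem_iUnion.1 h2
      obtain ⟨l3, a3, b3, d3⟩ := mem_iUnion.1 h3
      rw [← d2, ← d3, φP _ _ b1, φP _ _ b2, φP _ _ b3]
      exact h.le _ _ _ _ b1 _ b2 _ b3) (c3 ▸ I3.ne)
    (cst_meas.comp (measurable_id.prodMk (h2.prodMk h3))).aemeasurable (c3 ▸ hc)
  set B : Bool × Bool → Set E3 := fun l => A ∩ {x | T2 x = P (some l) x} with hB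
  have mB : ∀ l, MeasurableSet (B l) := fun l => mA.inter (measurableSet_eq_fun h2 (h.meas _))
  have low : ∀ s, MeasurableSet s → s ⊆ A → 6⁻¹ * ν s + 6⁻¹ * ν s ≤ μ s := fun s hs hA => by
    have e : ν (P none ⁻¹' s) = ν s := by
      rw [νi, νi s]; congr 1; ext a
      exact ⟨fun ⟨x, y⟩ => ⟨h.p0 a y ▸ x, y⟩, fun ⟨x, y⟩ => ⟨by rwa [mem_preimage, h.p0 a y], y⟩⟩
    rw [μa s hs, Fintype.sum_prod_type, Fintype.sum_bool, Fin.sum_univ_three, Fin.sum_univ_three,
      ← e]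
    exact add_le_add (le_self_add.trans le_self_add) (le_self_add.trans le_self_add)
  have B0 : ∀ l, ν (B l) = 0 := fun l => by
    have mS : MeasurableSet (P (some l) '' B l) := (mB l).image_of_continuousOn_injOn
      ((h.cont _).mono inter_subset_left) ((h.inj _).mono inter_subset_left)
    have k1 : μ (B l) ≤ μ (P (some l) '' B l) := by
      conv_rhs => rw [← e2, Measure.map_apply h2 mS]
      exact measure_mono fun x hx => ⟨x, hx, hx.2.symm⟩
    have k2 : ∀ l', ν (P l' ⁻¹' (P (some l) '' B l)) ≤ if l' = some l then ν (B l) else 0 :=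
      fun l' => by
        rw [νi]
        split_ifs with e
        · subst e
          exact measure_mono fun a ⟨⟨a', b', d⟩, ha⟩ => h.inj _ b'.1 ha d ▸ b'
        · rw [show P l' ⁻¹' (P (some l) '' B l) ∩ A = ∅ from eq_empty_of_forall_notMem
            fun a ⟨⟨a', b', d⟩, ha⟩ => e (h.disj _ _ _ b'.1 _ ha d).symm, measure_empty]
    have k3 : μ (P (some l) '' B l) ≤ 6⁻¹ * ν (B l) := by
      rw [μa _ mS]
      refine (Finset.sum_le_sum fun t _ => mul_le_mul_right (k2 (lab t)) _).trans (le_of_eq ?_)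
      obtain ⟨j, k⟩ := l
      cases j <;> cases k <;> simp [Fintype.sum_prod_type, Fin.sum_univ_three, lab]
    have k4 := (low _ (mB l) inter_subset_left).trans (k1.trans k3)
    have fin : (6 : ℝ≥0∞)⁻¹ * ν (B l) ≠ ∞ := ENNReal.mul_ne_top (by simp) (measure_ne_top _ _)
    have k5 : (6 : ℝ≥0∞)⁻¹ * ν (B l) ≤ 0 :=
      (ENNReal.add_le_add_iff_left fin).1 (by rwa [add_zero])
    simpa using k5
  have hbad : μ (A \ ⋃ l, B l) = 0 := by
    refine measure_mono_null ?_ (mem_ae_iff.1 (hae.and (u2.and u3)))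
    rintro x ⟨hx, hn⟩ ⟨h1, h2, h3⟩
    obtain ⟨l2, a2, b2, d2⟩ := mem_iUnion.1 h2
    obtain ⟨l3, a3, b3, d3⟩ := mem_iUnion.1 h3
    have e0 := h.p0 x hx
    have := h.rigid l2 l3 x hx a2 b2 a3 b3 (by
      rw [← φP _ _ hx, ← φP _ _ b2, ← φP _ _ b3, d2, d3, e0]; exact h1)
    obtain ⟨l, rfl⟩ := Option.ne_none_iff_exists'.1 this.1
    exact hn (mem_iUnion.2 ⟨l, hx, by rw [mem_setOf_eq, ← d2, this.2]⟩)
  have k := low _ (mA.diff (MeasurableSet.iUnion mB)) diff_subset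
  rw [hbad, measure_diff_null (measure_iUnion_null B0), ← univ_inter A, ← νi] at k
  simp at k

end Vale.Agent.P121
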