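import Mathlib

namespace Vale.Agent.P121

open Real Filter Topology Set
open scoped RealInnerProductSpace

variable {E : Type*} [NormedAddCommGroup E] [InnerProductSpace ℝ E]

noncomputable def kk (x : E) : E := -((‖x‖ ^ 3)⁻¹ • x)

lemma kk_neg (x : E) : kk (-x) = -kk x := by simp [kk]

lemma norm_strict {x : E} (hx : x ≠ 0) :
    HasStrictFDerivAt (fun y : E => ‖y‖) (‖x‖⁻¹ • innerSL ℝ x) x := by
  have hn : 0 < ‖x‖ := norm_pos_iff.2 hx
  have h := (hasStrictFDerivAt_norm_sq x).sqrt (by positivity)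
  have e1 : (fun y : E => √(‖y‖ ^ 2)) = fun y => ‖y‖ := by
    funext y; exact Real.sqrt_sq (norm_nonneg _)
  rw [e1, Real.sqrt_sq hn.le] at h
  convert h using 1
  ext δ
  simp
  field_simp

lemma hh_deriv {x : E} (hx : x ≠ 0) :
    HasFDerivAt (fun y : E => ‖y‖⁻¹) (innerSL ℝ (kk x)) x := by
  have hn : 0 < ‖x‖ := norm_pos_iff.2 hx
  have h := (hasDerivAt_inv hn.ne').comp_hasFDerivAt x (norm_strict hx).hasFDerivAt
  refine h.congr_fderiv ?_
  ext δ
  simp [kk, inner_smul_left]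
  rw [← mul_assoc, ← mul_inv, ← pow_succ]

lemma kk_strict {x : E} (hx : x ≠ 0) : ∃ D : E →L[ℝ] E, HasStrictFDerivAt kk D x ∧
    ∀ δ, D δ = -((‖x‖ ^ 3)⁻¹ • δ) + (3 * (‖x‖ ^ 5)⁻¹ * ⟪x, δ⟫) • x := by
  have hn : 0 < ‖x‖ := norm_pos_iff.2 hx
  have h1 := (norm_strict hx).pow 3
  have h2 := (hasStrictDerivAt_inv (pow_pos hn 3).ne').comp_hasStrictFDerivAt x h1
  have h3 := (h2.smul (hasStrictFDerivAt_id x)).neg
  refine ⟨_, h3, fun δ => ?_⟩
  simp
  rw [add_comm, ← neg_smul]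
  congr 2
  field_simp

end Vale.Agent.P121
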