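import Vale.Agent.P121.Deriv

namespace Vale.Agent.P121

open Real Filter Topology Set
open scoped RealInnerProductSpace

variable {E : Type*} [NormedAddCommGroup E] [InnerProductSpace ℝ E]

noncomputable def HH (e δ : E) : E := -δ + (3 * ⟪e, δ⟫) • e

noncomputable def Phi (e : E) (p : E × E × E) : E × E × E :=
  (p.1, kk (p.1 - p.2.1) + kk (p.1 - p.2.2) + (4 : ℝ) • p.1,
    kk (p.2.2 - p.1) - kk p.2.2 + kk (p.2.2 - p.2.1) - kk (p.2.2 - e) + (p.2.2 + e))

noncomputable def DD (e : E) (δ : E × E × E) : E × E × E :=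
  (δ.1, HH e (δ.1 - δ.2.1) + HH e (δ.1 - δ.2.2) + (4 : ℝ) • δ.1,
    -HH e δ.1 - (1 / 8 : ℝ) • HH e δ.2.1 + δ.2.2)

lemma kk_at {e : E} (he : ‖e‖ = 1) {t : ℝ} (ht : t ≠ 0) : ∃ D : E →L[ℝ] E,
    HasStrictFDerivAt kk D (t • e) ∧ ∀ δ, D δ = (|t| ^ 3)⁻¹ • HH e δ := by
  have he0 : e ≠ 0 := by rintro rfl; simp at he
  obtain ⟨D, h1, h2⟩ := kk_strict (smul_ne_zero ht he0)
  refine ⟨D, h1, fun δ => ?_⟩
  rw [h2, HH, norm_smul, he, mul_one, Real.norm_eq_abs, smul_add, smul_neg, smul_smul, smul_smul,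
    real_inner_smul_left]
  congr 2
  have : 0 < |t| := abs_pos.2 ht
  have h : t * t = |t| ^ 2 := by rw [sq_abs]; ring
  field_simp
  rw [sq_abs]

lemma Phi_base (e : E) : Phi e (0, e, -e) = 0 := by
  simp [Phi, kk_neg]

lemma Phi_strict {e : E} (he : ‖e‖ = 1) : ∃ D : (E × E × E) →L[ℝ] (E × E × E),
    HasStrictFDerivAt (Phi e) D (0, e, -e) ∧ ∀ δ, D δ = DD e δ := by
  obtain ⟨D1, a1, b1⟩ := kk_at he (t := -1) (by norm_num)
  obtain ⟨D2, a2, b2⟩ := kk_at he (t := 1) (by norm_num)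
  obtain ⟨D3, a3, b3⟩ := kk_at he (t := -2) (by norm_num)
  set p : E × E × E := (0, e, -e)
  have fa : HasStrictFDerivAt (fun q : E × E × E => q.1) (ContinuousLinearMap.fst ℝ _ _) p :=
    hasStrictFDerivAt_fst
  have fb : HasStrictFDerivAt (fun q : E × E × E => q.2.1) ((ContinuousLinearMap.fst ℝ _ _).comp
      (ContinuousLinearMap.snd ℝ _ _)) p :=
    hasStrictFDerivAt_fst.comp p (hasStrictFDerivAt_snd (𝕜 := ℝ))
  have fc : HasStrictFDerivAt (fun q : E × E × E => q.2.2) ((ContinuousLinearMap.snd ℝ _ _).comp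
      (ContinuousLinearMap.snd ℝ _ _)) p :=
    hasStrictFDerivAt_snd.comp p (hasStrictFDerivAt_snd (𝕜 := ℝ))
  have t1 := HasStrictFDerivAt.comp p (g := kk) (f := fun q : E × E × E => q.1 - q.2.1)
    (by convert a1 using 1; simp [p]) (fa.sub fb)
  have t2 := HasStrictFDerivAt.comp p (g := kk) (f := fun q : E × E × E => q.1 - q.2.2)
    (by convert a2 using 1; simp [p]) (fa.sub fc)
  have t3 := HasStrictFDerivAt.comp p (g := kk) (f := fun q : E × E × E => q.2.2 - q.1)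
    (by convert a1 using 1; simp [p]) (fc.sub fa)
  have t4 := HasStrictFDerivAt.comp p (g := kk) (f := fun q : E × E × E => q.2.2)
    (by convert a1 using 1; simp [p]) fc
  have t5 := HasStrictFDerivAt.comp p (g := kk) (f := fun q : E × E × E => q.2.2 - q.2.1)
    (by convert a3 using 1; simp [p]; module) (fc.sub fb)
  have t6 := HasStrictFDerivAt.comp p (g := kk) (f := fun q : E × E × E => q.2.2 - e)
    (by convert a3 using 1; simp [p]; module) (fc.sub_const e)
  refine ⟨_, fa.prodMk (((t1.add t2).add (fa.const_smul (4 : ℝ))).prodMk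
    ((((t3.sub t4).add t5).sub t6).add (fc.add_const e))), fun δ => ?_⟩
  have n2 : |(-2 : ℝ)| = 2 := by norm_num
  simp only [DD, ContinuousLinearMap.prod_apply, ContinuousLinearMap.add_apply,
    ContinuousLinearMap.sub_apply, ContinuousLinearMap.comp_apply, b1, b2, b3, n2,
    ContinuousLinearMap.smul_apply, ContinuousLinearMap.coe_fst', ContinuousLinearMap.coe_snd']
  simp only [abs_neg, abs_one, one_pow, inv_one, one_smul, HH, inner_sub_right]
  refine Prod.ext rfl (Prod.ext rfl ?_)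
  norm_num
  module

lemma solve {e δ : E} (he : ‖e‖ = 1) {α β : ℝ} (hα : α ≠ 0) (hβ : α + β ≠ 0)
    (h : α • δ + (β * ⟪e, δ⟫) • e = 0) : δ = 0 := by
  have h1 := congrArg (fun z => ⟪e, z⟫) h
  simp only [inner_add_right, real_inner_smul_right, real_inner_self_eq_norm_sq, he,
    inner_zero_right] at h1
  have h2 : ⟪e, δ⟫ = 0 := by
    have : (α + β) * ⟪e, δ⟫ = 0 := by linarith
    exact (mul_eq_zero.1 this).resolve_left hβ
  rw [h2] at h
  simpa [hα] using h

lemma HH_inj {e δ : E} (he : ‖e‖ = 1) (h : HH e δ = 0) : δ = 0 :=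
  solve he (α := -1) (β := 3) (by norm_num) (by norm_num) (by rw [← h, HH]; module)

lemma inj1 {e : E} (he : ‖e‖ = 1) {δ : E × E × E} (h : DD e δ = 0) : δ = 0 := by
  obtain ⟨a, b, c⟩ := δ
  simp only [DD, Prod.mk_eq_zero] at h
  obtain ⟨rfl, h2, h3⟩ := h
  have h4 : b + c = 0 := HH_inj he (by
    rw [← neg_eq_zero, ← h2]; simp only [HH, inner_add_right, inner_sub_right, inner_zero_right]
    module)
  obtain rfl : b = -c := eq_neg_of_add_eq_zero_left h4
  have : c = 0 := solve he (α := 7 / 8) (β := 3 / 8) (by norm_num) (by norm_num) (by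
    rw [← h3]; simp only [HH, inner_neg_right, inner_zero_right]; module)
  simp [this]

lemma inj2 {e : E} (he : ‖e‖ = 1) {a c : E} (h : (DD e (a, 0, c)).2 = 0) : a = 0 := by
  simp only [DD, Prod.mk_eq_zero] at h
  obtain ⟨h2, h3⟩ := h
  have hc : c = HH e a := by
    rw [← sub_eq_zero, ← h3]; simp only [HH, inner_zero_right]; module
  subst hc
  refine solve he (α := 1) (β := 3) (by norm_num) (by norm_num) ?_
  rw [← h2]
  simp only [HH, inner_sub_right, inner_zero_right, inner_add_right, inner_neg_right,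
    real_inner_smul_right, real_inner_self_eq_norm_sq, he]
  module

lemma inj3 {e : E} (he : ‖e‖ = 1) {a b : E} (h : (DD e (a, b, 0)).2 = 0) : a = 0 := by
  simp only [DD, Prod.mk_eq_zero] at h
  obtain ⟨h2, h3⟩ := h
  have h4 : b + (8 : ℝ) • a = 0 := HH_inj he (by
    have : HH e (b + (8 : ℝ) • a) = (-8 : ℝ) • (-HH e a - (1 / 8 : ℝ) • HH e b + 0) := by
      simp only [HH, inner_add_right, real_inner_smul_right]; module
    rw [this, h3, smul_zero])
  obtain rfl : b = -((8 : ℝ) • a) := eq_neg_of_add_eq_zero_left h4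
  refine solve he (α := -6) (β := 30) (by norm_num) (by norm_num) ?_
  rw [← h2]
  simp only [HH, inner_sub_right, inner_zero_right, inner_neg_right, real_inner_smul_right]
  module

lemma quad {e : E} (he : ‖e‖ = 1) (a c : E) :
    (‖a‖ ^ 2 + ‖c‖ ^ 2) / 4 ≤ ⟪(DD e (a, 0, c)).2.1, a⟫ + ⟪(DD e (a, 0, c)).2.2, c⟫ := by
  have k : ∀ z : E, ⟪e, z⟫ ^ 2 ≤ ‖z‖ ^ 2 := fun z => by
    have := abs_real_inner_le_norm e z
    rw [he, one_mul] at this
    rw [← sq_abs]; exact pow_le_pow_left₀ (abs_nonneg _) this 2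
  have k1 := k a
  have k2 := k (c + (4 / 3 : ℝ) • a)
  rw [norm_add_sq_real, norm_smul] at k2
  simp only [DD, HH, inner_add_left, inner_sub_left, inner_neg_left, real_inner_smul_left,
    inner_sub_right, inner_zero_right, inner_zero_left, real_inner_self_eq_norm_sq,
    inner_add_right, real_inner_smul_right, real_inner_comm a c, neg_zero,
    Real.norm_eq_abs] at k2 ⊢
  rw [abs_of_pos (by norm_num : (0 : ℝ) < 4 / 3)] at k2
  nlinarith [sq_nonneg (⟪e, c⟫ - 8 / 3 * ⟪e, a⟫), sq_nonneg ⟪e, a⟫]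

lemma strict_anti {F : Type*} [NormedAddCommGroup F] [NormedSpace ℝ F] [FiniteDimensional ℝ E]
    {f : E → F} {D : E →L[ℝ] F} {x : E} (hf : HasStrictFDerivAt f D x)
    (hD : ∀ δ, D δ = 0 → δ = 0) : ∃ K : NNReal, ∃ s ∈ 𝓝 x, ∀ y ∈ s, ∀ z ∈ s,
      ‖y - z‖ ≤ K * ‖f y - f z‖ := by
  obtain ⟨K, hK, h⟩ := (D : E →ₗ[ℝ] F).exists_antilipschitzWith
    (LinearMap.ker_eq_bot'.2 hD)
  obtain ⟨s, hs, ha⟩ := hf.approximates_deriv_on_nhds (c := (2 * K)⁻¹) (Or.inr (by positivity))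
  refine ⟨2 * K, s, hs, fun y hy z hz => ?_⟩
  have h1 := ha y hy z hz
  have h2 : ‖y - z‖ ≤ K * ‖D (y - z)‖ := by simpa using h.le_mul_norm (map_zero _) (y - z)
  have h3 : ‖D (y - z)‖ ≤ ‖f y - f z‖ + ‖f y - f z - D (y - z)‖ := by
    have := norm_sub_le (f y - f z) (f y - f z - D (y - z))
    simpa using this
  have hK' : (0 : ℝ) < K := hK
  have h4 : (K : ℝ) * ‖f y - f z - D (y - z)‖ ≤ ‖y - z‖ / 2 := by
    refine (mul_le_mul_of_nonneg_left h1 hK'.le).trans (le_of_eq ?_)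
    push_cast; field_simp
  push_cast
  nlinarith [mul_le_mul_of_nonneg_left h3 hK'.le]

end Vale.Agent.P121
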