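import Vale.Agent.P121.Mono

namespace Vale.Agent.P121

open Real Filter Topology Set Metric
open scoped RealInnerProductSpace

variable {E : Type*} [NormedAddCommGroup E] [InnerProductSpace ℝ E]

structure Good (e : E) (b c : E → E) (K : NNReal) (r : ℝ) : Prop where
  cb : ContinuousOn b (closedBall 0 r)
  cc : ContinuousOn c (closedBall 0 r)
  nb : ∀ a ∈ closedBall (0 : E) r, ‖b a - e‖ ≤ 1 / 100
  nc : ∀ a ∈ closedBall (0 : E) r, ‖c a - -e‖ ≤ 1 / 100
  ab : ∀ a ∈ closedBall (0 : E) r, ∀ a' ∈ closedBall (0 : E) r, ‖a - a'‖ ≤ K * ‖b a - b a'‖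
  ac : ∀ a ∈ closedBall (0 : E) r, ∀ a' ∈ closedBall (0 : E) r, ‖a - a'‖ ≤ K * ‖c a - c a'‖
  gG : ∀ a ∈ closedBall (0 : E) r, |GG e a (b a) (c a) - 1| ≤ 1 / 100
  gw : ∀ a ∈ closedBall (0 : E) r, |ww e (c a) - 3 / 2| ≤ 1 / 100
  lt : ∀ a ∈ closedBall (0 : E) r, ∀ a1 ∈ closedBall (0 : E) r, ∀ a2 ∈ closedBall (0 : E) r,
    a ≠ a1 ∨ a2 ≠ a1 → GG e a1 (b a1) (c a1) < GG e a (b a1) (c a2)

lemma Good.mono {e : E} {b c : E → E} {K K' : NNReal} {r r' : ℝ} (h : Good e b c K r)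
    (hr : r' ≤ r) (hK : K ≤ K') : Good e b c K' r' := by
  have s : closedBall (0 : E) r' ⊆ closedBall 0 r := closedBall_subset_closedBall hr
  have k : (K : ℝ) ≤ K' := hK
  exact ⟨h.cb.mono s, h.cc.mono s, fun a ha => h.nb a (s ha), fun a ha => h.nc a (s ha),
    fun a ha a' ha' => (h.ab a (s ha) a' (s ha')).trans (by gcongr),
    fun a ha a' ha' => (h.ac a (s ha) a' (s ha')).trans (by gcongr),
    fun a ha => h.gG a (s ha), fun a ha => h.gw a (s ha),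
    fun a ha a1 h1 a2 h2 => h.lt a (s ha) a1 (s h1) a2 (s h2)⟩

theorem exists_good [FiniteDimensional ℝ E] {e : E} (he : ‖e‖ = 1) :
    ∃ b c : E → E, ∃ K, ∃ r > 0, Good e b c K r := by
  haveI : CompleteSpace E := FiniteDimensional.complete ℝ E
  obtain ⟨D, hD, hD'⟩ := Phi_strict he
  have inj : Function.Injective (D : (E × E × E) →ₗ[ℝ] (E × E × E)) :=
    LinearMap.ker_eq_bot.1 (LinearMap.ker_eq_bot'.2 fun δ h => inj1 he (hD' δ ▸ h))
  set L := (LinearEquiv.ofInjectiveEndo _ inj).toContinuousLinearEquiv with hL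
  have hLD : (L : (E × E × E) →L[ℝ] (E × E × E)) = D := ContinuousLinearMap.ext fun δ => rfl
  rw [← hLD] at hD
  have hI := hD.to_localInverse
  have hR := hD.eventually_right_inverse
  have h0 := hD.localInverse_apply_image
  rw [Phi_base] at hI hR h0
  set Ψ := hD.localInverse (Phi e) L (0, e, -e)
  have hin : HasStrictFDerivAt (fun a : E => ((a, 0) : E × E × E)) (ContinuousLinearMap.inl ℝ _ _)
    0 := (ContinuousLinearMap.inl ℝ E (E × E)).hasStrictFDerivAt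
  have hΨ := HasStrictFDerivAt.comp (0 : E) (g := Ψ) (f := fun a : E => ((a, 0) : E × E × E))
    hI hin
  set ψ : E → E × E × E := fun a => Ψ (a, 0) with hψ
  have ψ0 : ψ 0 = (0, e, -e) := h0
  have hR' : ∀ᶠ a in 𝓝 (0 : E), Phi e (ψ a) = (a, 0) := hin.continuousAt.eventually hR
  have key : ∀ a : E, DD e (L.symm (a, 0)) = (a, 0) := fun a => by
    rw [← hD', ← hLD]; exact L.apply_symm_apply _
  have key1 : ∀ a : E, (L.symm (a, 0)).1 = a := fun a => congrArg Prod.fst (key a)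
  have hb := (hasStrictFDerivAt_fst.comp _ (hasStrictFDerivAt_snd (𝕜 := ℝ))).comp 0 hΨ
  have hc := (hasStrictFDerivAt_snd.comp _ (hasStrictFDerivAt_snd (𝕜 := ℝ))).comp 0 hΨ
  obtain ⟨K1, s1, hs1, k1⟩ := strict_anti hb (fun a h => by
    have h' : (L.symm (a, 0)).2.1 = 0 := h
    refine inj2 he (c := (L.symm (a, 0)).2.2) ?_
    have : ((a, 0, (L.symm (a, 0)).2.2) : E × E × E) = L.symm (a, 0) :=
      Prod.ext (key1 a).symm (Prod.ext h'.symm rfl)
    rw [this, key])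
  obtain ⟨K2, s2, hs2, k2⟩ := strict_anti hc (fun a h => by
    have h' : (L.symm (a, 0)).2.2 = 0 := h
    refine inj3 he (b := (L.symm (a, 0)).2.1) ?_
    have : ((a, (L.symm (a, 0)).2.1, 0) : E × E × E) = L.symm (a, 0) :=
      Prod.ext (key1 a).symm (Prod.ext rfl h'.symm)
    rw [this, key])
  obtain ⟨K3, s3, hs3, k3⟩ := hΨ.exists_lipschitzOnWith
  obtain ⟨ρ, hρ, hm⟩ := mono he
  have cψ : ContinuousAt ψ 0 := hΨ.continuousAt
  have e1 : ∀ᶠ a in 𝓝 (0 : E), ψ a ∈ ball ((0, e, -e) : E × E × E) (min ρ (1 / 100)) :=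
    cψ.eventually_mem (ψ0 ▸ ball_mem_nhds _ (by positivity))
  obtain ⟨n1, n2, n3, n4, n5⟩ := near he (q := ψ 0) (ψ0 ▸ mem_ball_self (by norm_num))
  have ca : ContinuousAt (fun a => (ψ a).1) 0 := cψ.fst
  have cb : ContinuousAt (fun a => (ψ a).2.1) 0 := cψ.snd.fst
  have cc : ContinuousAt (fun a => (ψ a).2.2) 0 := cψ.snd.snd
  have cw : ContinuousAt (fun a => ww e (ψ a).2.2) 0 :=
    ((cc.norm.inv₀ (norm_ne_zero_iff.2 n4)).add ((cc.sub continuousAt_const).norm.inv₀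
      (norm_ne_zero_iff.2 n5))).sub (((cc.add continuousAt_const).norm.pow 2).div_const 2)
  have cG : ContinuousAt (fun a => GG e (ψ a).1 (ψ a).2.1 (ψ a).2.2) 0 :=
    (((((ca.sub cb).norm.inv₀ (norm_ne_zero_iff.2 n1)).add ((ca.sub cc).norm.inv₀
      (norm_ne_zero_iff.2 n2))).add ((cb.sub cc).norm.inv₀
        (norm_ne_zero_iff.2 (sub_ne_zero.2 (sub_ne_zero.1 n3).symm)))).add
          ((ca.norm.pow 2).const_mul 2)).sub cw
  have two : ‖e + e‖ = 2 := by rw [← two_smul ℝ, norm_smul, he]; norm_num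
  have w0 : ww e (ψ 0).2.2 = 3 / 2 := by
    rw [ψ0]; simp only [ww]
    rw [show -e - e = -(e + e) by abel, norm_neg, norm_neg, two, he]; norm_num
  have G0 : GG e (ψ 0).1 (ψ 0).2.1 (ψ 0).2.2 = 1 := by
    rw [GG, w0, ψ0]; simp [two, he]; norm_num
  have e2 := cw.eventually_mem (closedBall_mem_nhds _ (by norm_num : (0 : ℝ) < 1 / 100))
  have e3 := cG.eventually_mem (closedBall_mem_nhds _ (by norm_num : (0 : ℝ) < 1 / 100))
  rw [w0] at e2
  rw [G0] at e3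
  obtain ⟨r, hr, hh⟩ := Metric.nhds_basis_closedBall.eventually_iff.1
    (hR'.and (e1.and (e2.and (e3.and ((show ∀ᶠ a in 𝓝 (0 : E), a ∈ s1 from hs1).and
      ((show ∀ᶠ a in 𝓝 (0 : E), a ∈ s2 from hs2).and
        (show ∀ᶠ a in 𝓝 (0 : E), a ∈ s3 from hs3)))))))
  have f1 : ∀ a ∈ closedBall (0 : E) r, (ψ a).1 = a := fun a ha => congrArg Prod.fst (hh ha).1
  have cψ' : ContinuousOn ψ (closedBall 0 r) :=
    k3.continuousOn.mono fun a ha => (hh ha).2.2.2.2.2.2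
  have bl : ∀ a ∈ closedBall (0 : E) r, ‖a‖ < min ρ (1 / 100) ∧
      ‖(ψ a).2.1 - e‖ < min ρ (1 / 100) ∧ ‖(ψ a).2.2 - -e‖ < min ρ (1 / 100) := fun a ha => by
    have := (hh ha).2.1
    rw [mem_ball, dist_eq_norm] at this
    refine ⟨?_, (norm_fst_le _).trans_lt ((norm_snd_le _).trans_lt this),
      (norm_snd_le _).trans_lt ((norm_snd_le _).trans_lt this)⟩
    have h2 := (norm_fst_le _).trans_lt this
    rwa [Prod.fst_sub, f1 a ha, sub_zero] at h2
  have bl' : ∀ a ∈ closedBall (0 : E) r, ∀ a1 ∈ closedBall (0 : E) r, ∀ a2 ∈ closedBall (0 : E) r,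
      ((a, (ψ a1).2.1, (ψ a2).2.2) : E × E × E) ∈ ball ((0, e, -e) : E × E × E) ρ :=
    fun a ha a1 h1 a2 h2 => by
      rw [mem_ball, dist_eq_norm]
      simp only [Prod.mk_sub_mk, Prod.norm_mk, max_lt_iff, sub_zero]
      exact ⟨(bl a ha).1.trans_le (min_le_left _ _), (bl a1 h1).2.1.trans_le (min_le_left _ _),
        (bl a2 h2).2.2.trans_le (min_le_left _ _)⟩
  have kc : ∀ a ∈ closedBall (0 : E) r, ∀ a' ∈ closedBall (0 : E) r,
      ‖a - a'‖ ≤ (max K1 K2 : NNReal) * ‖(ψ a).2.2 - (ψ a').2.2‖ := fun a ha a' ha' =>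
    (k2 a (hh ha).2.2.2.2.2.1 a' (hh ha').2.2.2.2.2.1).trans
      (mul_le_mul_of_nonneg_right (by exact_mod_cast le_max_right _ _) (norm_nonneg _))
  refine ⟨fun a => (ψ a).2.1, fun a => (ψ a).2.2, max K1 K2, r, hr, cψ'.snd.fst, cψ'.snd.snd,
    fun a ha => (bl a ha).2.1.le.trans (min_le_right _ _),
    fun a ha => (bl a ha).2.2.le.trans (min_le_right _ _),
    fun a ha a' ha' => (k1 a (hh ha).2.2.2.2.1 a' (hh ha').2.2.2.2.1).trans
      (mul_le_mul_of_nonneg_right (by exact_mod_cast le_max_left _ _) (norm_nonneg _)), kc,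
    fun a ha => ?_, fun a ha => (hh ha).2.2.1, fun a ha a1 h1 a2 h2 hne => ?_⟩
  · have := (hh ha).2.2.2.1
    rwa [f1 a ha] at this
  · refine hm _ _ _ _ _ (bl' a ha a1 h1 a2 h2) (bl' a1 h1 a1 h1 a1 h1) ?_ (hne.imp id fun h h' => h ?_)
    · have : ((a1, (ψ a1).2.1, (ψ a1).2.2) : E × E × E) = ψ a1 := Prod.ext (f1 a1 h1).symm rfl
      rw [this, (hh h1).1]
    · have := kc a2 h2 a1 h1
      rw [h', sub_self, norm_zero, mul_zero] at this
      exact sub_eq_zero.1 (norm_le_zero_iff.1 this)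

end Vale.Agent.P121
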