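import Vale.Agent.P121.Abstract
import Vale.Agent.P121.Maps

namespace Vale.Agent.P121

open MeasureTheory Set Filter Function Metric
open scoped ENNReal NNReal

noncomputable def ee (j : Bool) : E3 := EuclideanSpace.single (if j then 0 else 1) 1

lemma ee_norm (j : Bool) : ‖ee j‖ = 1 := by simp [ee]

noncomputable def ctr : Lab → E3
  | none => 0
  | some (j, true) => ee j
  | some (j, false) => -ee j

def Dm : Lab → Lab → ℚ
  | none, none => 0
  | none, some _ => 1
  | some _, none => 1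
  | some (j, k), some (j', k') => if j = j' then (if k = k' then 0 else 2) else 3 / 2

def bet : Lab → ℚ
  | none => 17 / 10
  | some _ => 2 / 5

lemma ctr_sq (l l' : Lab) : ‖ctr l - ctr l'‖ ^ 2 ≤ (Dm l l' : ℝ) ^ 2 ∧ (0 : ℝ) ≤ Dm l l' ∧
    (l ≠ l' → 1 ≤ ‖ctr l - ctr l'‖ ^ 2) := by
  rw [EuclideanSpace.norm_sq_eq]
  rcases l with _ | ⟨_ | _, _ | _⟩ <;> rcases l' with _ | ⟨_ | _, _ | _⟩ <;>
    simp [ctr, ee, Dm, Fin.sum_univ_three] <;> norm_num

def Opt (l1 l2 l3 : Lab) : Prop := ∃ j : Bool,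
  (l1 = none ∧ l2 = some (j, true) ∧ l3 = some (j, false)) ∨
  (l1 = none ∧ l3 = some (j, true) ∧ l2 = some (j, false)) ∨
  (l2 = none ∧ l1 = some (j, true) ∧ l3 = some (j, false)) ∨
  (l2 = none ∧ l3 = some (j, true) ∧ l1 = some (j, false)) ∨
  (l3 = none ∧ l1 = some (j, true) ∧ l2 = some (j, false)) ∨
  (l3 = none ∧ l2 = some (j, true) ∧ l1 = some (j, false))

instance (l1 l2 l3 : Lab) : Decidable (Opt l1 l2 l3) := by unfold Opt; infer_instance

lemma numeric : ∀ l1 l2 l3 : Lab, Opt l1 l2 l3 ∨ bet l1 + bet l2 + bet l3 + 3 / 100 <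
    (Dm l1 l2 + 1 / 50)⁻¹ + (Dm l1 l3 + 1 / 50)⁻¹ + (Dm l2 l3 + 1 / 50)⁻¹ := by
  decide +kernel

lemma cst_swap (x y z : E3) : cst x z y = cst x y z := by
  rw [cst, cst, edist_comm z y]; ring

lemma inv_edist {x y : E3} (h : x ≠ y) : (edist x y)⁻¹ = .ofReal ‖x - y‖⁻¹ := by
  rw [edist_dist, dist_eq_norm, ENNReal.ofReal_inv_of_pos (norm_pos_iff.2 (sub_ne_zero.2 h))]

lemma le_inv_edist {x y : E3} {D : ℝ} (hD : 0 < D) (h : ‖x - y‖ ≤ D) :
    .ofReal D⁻¹ ≤ (edist x y)⁻¹ := by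
  rw [ENNReal.ofReal_inv_of_pos hD, edist_dist, dist_eq_norm]
  exact ENNReal.inv_le_inv.2 (ENNReal.ofReal_le_ofReal h)

theorem exists_data : ∃ A P ψ K, Data A P ψ K := by
  classical
  choose b c K0 r0 hr0 hG using fun j => exists_good (ee_norm j)
  set r := min (min (r0 true) (r0 false)) (1 / 100) with hr
  set K := max (max (K0 true) (K0 false)) 1 with hK
  have r1 : 0 < r := lt_min (lt_min (hr0 _) (hr0 _)) (by norm_num)
  have G : ∀ j, Good (ee j) (b j) (c j) K r := fun j => (hG j).mono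
    ((min_le_left _ _).trans (by cases j; exacts [min_le_right _ _, min_le_left _ _]))
    (le_trans (by cases j; exacts [le_max_right _ _, le_max_left _ _]) (le_max_left _ _))
  set A := closedBall (0 : E3) r with hA
  have nA : ∀ a ∈ A, ‖a‖ ≤ 1 / 100 := fun a ha =>
    (mem_closedBall_zero_iff.1 ha).trans (min_le_right _ _)
  let Q : Lab → E3 → E3 := fun l => match l with
    | none => id
    | some (j, true) => b j
    | some (j, false) => c j
  let ψ : Lab → E3 → ℝ := fun l a => match l with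
    | none => 17 / 10 - 2 * ‖a‖ ^ 2
    | some (j, true) => GG (ee j) a (b j a) (c j a) - 6 / 10
    | some (j, false) => ww (ee j) (c j a) - 11 / 10
  have cQ : ∀ l, ContinuousOn (Q l) A := fun l => by
    rcases l with _ | ⟨j, _ | _⟩
    exacts [continuousOn_id, (G j).cc, (G j).cb]
  have nQ : ∀ l, ∀ a ∈ A, ‖Q l a - ctr l‖ ≤ 1 / 100 := fun l a ha => by
    rcases l with _ | ⟨j, _ | _⟩
    exacts [by simpa [Q, ctr] using nA a ha, (G j).nc a ha, (G j).nb a ha]
  have nψ : ∀ l, ∀ a ∈ A, |ψ l a - bet l| ≤ 1 / 100 := fun l a ha => by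
    rcases l with _ | ⟨j, _ | _⟩
    · have := nA a ha
      simp only [ψ, bet]; push_cast
      rw [abs_le]; constructor <;> nlinarith [norm_nonneg a]
    · have := (G j).gw a ha
      simp only [ψ, bet]; push_cast
      rw [abs_le] at this ⊢; constructor <;> linarith [this.1, this.2]
    · have := (G j).gG a ha
      simp only [ψ, bet]; push_cast
      rw [abs_le] at this ⊢; constructor <;> linarith [this.1, this.2]
  have ψ0 : ∀ l, ∀ a ∈ A, 0 ≤ ψ l a := fun l a ha => by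
    have := (abs_le.1 (nψ l a ha)).1
    have h2 : (2 / 5 : ℝ) ≤ bet l := by cases l <;> simp [bet] <;> norm_num
    linarith
  have tri : ∀ l l', ∀ a ∈ A, ∀ a' ∈ A, |‖Q l a - Q l' a'‖ - ‖ctr l - ctr l'‖| ≤ 1 / 50 :=
    fun l l' a ha a' ha' => by
      refine (abs_norm_sub_norm_le _ _).trans ?_
      rw [show Q l a - Q l' a' - (ctr l - ctr l') = (Q l a - ctr l) - (Q l' a' - ctr l') by abel]
      linarith [norm_sub_le (Q l a - ctr l) (Q l' a' - ctr l'), nQ l a ha, nQ l' a' ha']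
  have dis : ∀ l l', l ≠ l' → ∀ a ∈ A, ∀ a' ∈ A, Q l a ≠ Q l' a' := fun l l' h a ha a' ha' e => by
    have h1 := (abs_le.1 (tri l l' a ha a' ha')).1
    rw [e, sub_self, norm_zero] at h1
    nlinarith [(ctr_sq l l').2.2 h, norm_nonneg (ctr l - ctr l')]
  have up : ∀ l l', ∀ a ∈ A, ∀ a' ∈ A, ENNReal.ofReal ((Dm l l' : ℝ) + 1 / 50)⁻¹ ≤
      (edist (Q l a) (Q l' a'))⁻¹ := fun l l' a ha a' ha' => by
    have h0 := (ctr_sq l l').2.1
    refine le_inv_edist (by positivity) ?_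
    have := abs_le_of_sq_le_sq' (ctr_sq l l').1 h0
    linarith [(abs_le.1 (tri l l' a ha a' ha')).2, this.2]
  have add3 : ∀ {x y z : ℝ}, 0 ≤ x → 0 ≤ y → 0 ≤ z →
      ENNReal.ofReal x + .ofReal y + .ofReal z = .ofReal (x + y + z) := fun hx hy hz => by
    rw [ENNReal.ofReal_add (add_nonneg hx hy) hz, ENNReal.ofReal_add hx hy]
  have strict : ∀ l1 l2 l3, ¬ Opt l1 l2 l3 → ∀ a1 ∈ A, ∀ a2 ∈ A, ∀ a3 ∈ A,
      .ofReal (ψ l1 a1) + .ofReal (ψ l2 a2) + .ofReal (ψ l3 a3) <
        cst (Q l1 a1) (Q l2 a2) (Q l3 a3) := fun l1 l2 l3 h a1 h1 a2 h2 a3 h3 => by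
    refine lt_of_lt_of_le ?_ (add_le_add (add_le_add (up l1 l2 a1 h1 a2 h2)
      (up l1 l3 a1 h1 a3 h3)) (up l2 l3 a2 h2 a3 h3))
    have d1 := (ctr_sq l1 l2).2.1
    have d2 := (ctr_sq l1 l3).2.1
    have d3 := (ctr_sq l2 l3).2.1
    rw [add3 (ψ0 _ _ h1) (ψ0 _ _ h2) (ψ0 _ _ h3), add3 (by positivity) (by positivity)
      (by positivity), ENNReal.ofReal_lt_ofReal_iff (by positivity)]
    have := (Rat.cast_lt (K := ℝ)).2 ((numeric l1 l2 l3).resolve_left h)
    push_cast at this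
    linarith [(abs_le.1 (nψ l1 a1 h1)).2, (abs_le.1 (nψ l2 a2 h2)).2, (abs_le.1 (nψ l3 a3 h3)).2]
  have ceq : ∀ j, ∀ a ∈ A, ∀ a1 ∈ A, ∀ a2 ∈ A, cst a (b j a1) (c j a2) =
      .ofReal (GG (ee j) a (b j a1) (c j a2) - 2 * ‖a‖ ^ 2 + ww (ee j) (c j a2)) :=
    fun j a ha a1 h1 a2 h2 => by
      rw [cst, inv_edist (x := a) (y := b j a1) (dis none (some (j, true)) (by simp) a ha a1 h1),
        inv_edist (x := a) (y := c j a2) (dis none (some (j, false)) (by simp) a ha a2 h2),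
        inv_edist (x := b j a1) (y := c j a2)
          (dis (some (j, true)) (some (j, false)) (by simp) a1 h1 a2 h2),
        add3 (by positivity) (by positivity) (by positivity)]
      congr 1; simp only [GG]; ring
  have oeq : ∀ j, ∀ a ∈ A, .ofReal (ψ none a) + .ofReal (ψ (some (j, true)) a) +
      .ofReal (ψ (some (j, false)) a) = cst a (b j a) (c j a) := fun j a ha => by
    rw [ceq j a ha a ha a ha, add3 (ψ0 none _ ha) (ψ0 (some (j, true)) _ ha)
      (ψ0 (some (j, false)) _ ha)]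
    congr 1; simp only [ψ]; ring
  have olt : ∀ j, ∀ a ∈ A, ∀ a1 ∈ A, ∀ a2 ∈ A, a ≠ a1 ∨ a2 ≠ a1 →
      .ofReal (ψ none a) + .ofReal (ψ (some (j, true)) a1) +
      .ofReal (ψ (some (j, false)) a2) < cst a (b j a1) (c j a2) := fun j a ha a1 h1 a2 h2 h => by
    have := (G j).lt a ha a1 h1 a2 h2 h
    have k := add_nonneg (add_nonneg (ψ0 none _ ha) (ψ0 (some (j, true)) _ h1))
      (ψ0 (some (j, false)) _ h2)
    rw [ceq j a ha a1 h1 a2 h2, add3 (ψ0 none _ ha) (ψ0 (some (j, true)) _ h1)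
      (ψ0 (some (j, false)) _ h2),
      ENNReal.ofReal_lt_ofReal_iff_of_nonneg k]
    simp only [ψ]; linarith
  have ole : ∀ j, ∀ a ∈ A, ∀ a1 ∈ A, ∀ a2 ∈ A,
      .ofReal (ψ none a) + .ofReal (ψ (some (j, true)) a1) +
      .ofReal (ψ (some (j, false)) a2) ≤ cst a (b j a1) (c j a2) := fun j a ha a1 h1 a2 h2 => by
    by_cases h : a ≠ a1 ∨ a2 ≠ a1
    · exact (olt j a ha a1 h1 a2 h2 h).le
    · push Not at h
      obtain ⟨rfl, rfl⟩ := h
      exact (oeq j _ ha).le
  have pw : ∀ l, ∀ a ∈ A, A.piecewise (Q l) (fun _ => 0) a = Q l a := fun l a ha =>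
    piecewise_eq_of_mem _ _ _ ha
  refine ⟨A, fun l => A.piecewise (Q l) fun _ => 0, ψ, K, isCompact_closedBall _ _,
    (measure_closedBall_pos _ _ r1).ne', fun l => (cQ l).measurable_piecewise continuousOn_const
      measurableSet_closedBall, fun l => (cQ l).congr (pw l), pw none, fun l a ha a' ha' => ?_,
    fun l l' a ha a' ha' e => ?_, fun l => ?_, fun l1 l2 l3 a1 h1 a2 h2 a3 h3 => ?_,
    fun l2 l3 a1 h1 a2 h2 a3 h3 e => ?_, fun j a ha => ?_⟩
  · rw [pw l a ha, pw l a' ha']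
    rcases l with _ | ⟨j, _ | _⟩
    · exact le_mul_of_one_le_left (norm_nonneg _) (by exact_mod_cast le_max_right _ _)
    exacts [(G j).ac a ha a' ha', (G j).ab a ha a' ha']
  · rw [pw l a ha, pw l' a' ha'] at e
    by_contra h
    exact dis l l' h a ha a' ha' e
  · have cw : ∀ j, ContinuousOn (fun a => ww (ee j) (c j a)) A := fun j =>
      (((G j).cc.norm.inv₀ fun a ha => by
        have := nQ (some (j, false)) a ha
        intro h
        rw [show Q (some (j, false)) a = c j a from rfl, norm_eq_zero.1 h] at this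
        simp [ctr, ee_norm] at this; linarith).add (((G j).cc.sub continuousOn_const).norm.inv₀
          fun a ha => by
            have := nQ (some (j, false)) a ha
            intro h
            rw [show Q (some (j, false)) a = c j a from rfl, sub_eq_zero.1 (norm_eq_zero.1 h)] at this
            simp only [ctr, sub_neg_eq_add, ← two_smul ℝ, norm_smul, ee_norm] at this
            norm_num at this)).sub ((((G j).cc.add continuousOn_const).norm.pow 2).div_const 2)
    rcases l with _ | ⟨j, _ | _⟩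
    · exact (by fun_prop : Continuous fun a : E3 => 17 / 10 - 2 * ‖a‖ ^ 2).continuousOn
    · exact (cw j).sub continuousOn_const
    · refine ContinuousOn.sub (ContinuousOn.sub ((((((continuousOn_id.sub (G j).cb).norm.inv₀
        ?_).add ((continuousOn_id.sub (G j).cc).norm.inv₀ ?_)).add
          (((G j).cb.sub (G j).cc).norm.inv₀ ?_))).add
        (by fun_prop : Continuous fun a : E3 => 2 * ‖a‖ ^ 2).continuousOn) (cw j))
          continuousOn_const
      · exact fun a ha => norm_ne_zero_iff.2 (sub_ne_zero.2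
          (dis none (some (j, true)) (by simp) a ha a ha))
      · exact fun a ha => norm_ne_zero_iff.2 (sub_ne_zero.2
          (dis none (some (j, false)) (by simp) a ha a ha))
      · exact fun a ha => norm_ne_zero_iff.2 (sub_ne_zero.2
          (dis (some (j, true)) (some (j, false)) (by simp) a ha a ha))
  · rw [pw _ _ h1, pw _ _ h2, pw _ _ h3]
    by_cases h : Opt l1 l2 l3
    swap
    · exact (strict l1 l2 l3 h a1 h1 a2 h2 a3 h3).le
    obtain ⟨j, ⟨rfl, rfl, rfl⟩ | ⟨rfl, rfl, rfl⟩ | ⟨rfl, rfl, rfl⟩ | ⟨rfl, rfl, rfl⟩ |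
      ⟨rfl, rfl, rfl⟩ | ⟨rfl, rfl, rfl⟩⟩ := h
    · exact ole j a1 h1 a2 h2 a3 h3
    · exact (le_of_eq (by ring)).trans ((ole j a1 h1 a3 h3 a2 h2).trans_eq (cst_swap _ _ _))
    · exact (le_of_eq (by ring)).trans ((ole j a2 h2 a1 h1 a3 h3).trans_eq
        ((cst_swap _ _ _).trans (cst_cyc _ _ _)))
    · exact (le_of_eq (by ring)).trans ((ole j a2 h2 a3 h3 a1 h1).trans_eq (cst_cyc _ _ _))
    · exact (le_of_eq (by ring)).trans ((ole j a3 h3 a1 h1 a2 h2).trans_eq (cst_cyc _ _ _).symm)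
    · exact (le_of_eq (by ring)).trans ((ole j a3 h3 a2 h2 a1 h1).trans_eq
        ((cst_swap _ _ _).trans (cst_cyc _ _ _).symm))
  · rw [pw none _ h1, pw l2 _ h2, pw l3 _ h3] at e
    by_cases h : Opt none l2 l3
    swap
    · exact absurd e (strict _ l2 l3 h a1 h1 a2 h2 a3 h3).ne
    obtain ⟨j, ⟨-, rfl, rfl⟩ | ⟨-, rfl, rfl⟩ | ⟨-, h, -⟩ | ⟨-, -, h⟩ | ⟨-, h, -⟩ | ⟨-, -, h⟩⟩ := h
    · refine ⟨by simp, by_contra fun hn => (olt j a1 h1 a2 h2 a3 h3 (Or.inl (Ne.symm hn))).ne e⟩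
    · refine ⟨by simp, by_contra fun hn => (olt j a1 h1 a3 h3 a2 h2 ?_).ne
        (Eq.trans (by ring) (e.trans (cst_swap _ _ _)))⟩
      by_contra hc
      push Not at hc
      exact hn (hc.2.trans hc.1.symm)
    all_goals simp at h
  · rw [pw none _ ha, pw (some (j, true)) _ ha, pw (some (j, false)) _ ha]
    exact oeq j a ha

end Vale.Agent.P121
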