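import Vale.Agent.P121.Local

namespace Vale.Agent.P121

open Real Filter Topology Set Metric
open scoped RealInnerProductSpace

variable {E : Type*} [NormedAddCommGroup E] [InnerProductSpace ℝ E]

noncomputable def ww (e c : E) : ℝ := ‖c‖⁻¹ + ‖c - e‖⁻¹ - ‖c + e‖ ^ 2 / 2

noncomputable def GG (e a b c : E) : ℝ :=
  ‖a - b‖⁻¹ + ‖a - c‖⁻¹ + ‖b - c‖⁻¹ + 2 * ‖a‖ ^ 2 - ww e c

lemma line_hh {x v : E} {t : ℝ} (h : x + t • v ≠ 0) :
    HasDerivAt (fun s : ℝ => ‖x + s • v‖⁻¹) ⟪kk (x + t • v), v⟫ t := by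
  have h1 : HasDerivAt (fun s : ℝ => x + s • v) v t := by
    simpa using ((hasDerivAt_id t).smul_const v).const_add x
  exact (hh_deriv h).comp_hasDerivAt t h1

lemma line_sq (x v : E) (t : ℝ) :
    HasDerivAt (fun s : ℝ => ‖x + s • v‖ ^ 2) (2 * ⟪x + t • v, v⟫) t := by
  have h1 : HasDerivAt (fun s : ℝ => x + s • v) v t := by
    simpa using ((hasDerivAt_id t).smul_const v).const_add x
  exact h1.norm_sq

lemma near {e : E} (he : ‖e‖ = 1) {q : E × E × E} (hq : q ∈ ball ((0, e, -e) : E × E × E) (1 / 4)) :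
    q.1 - q.2.1 ≠ 0 ∧ q.1 - q.2.2 ≠ 0 ∧ q.2.2 - q.2.1 ≠ 0 ∧ q.2.2 ≠ 0 ∧ q.2.2 - e ≠ 0 := by
  obtain ⟨a, b, c⟩ := q
  rw [mem_ball, dist_eq_norm] at hq
  simp only [Prod.mk_sub_mk, Prod.norm_mk, max_lt_iff, sub_zero, sub_neg_eq_add] at hq
  obtain ⟨h1, h2, h3⟩ := hq
  have two : ‖e + e‖ = 2 := by rw [← two_smul ℝ, norm_smul, he]; norm_num
  refine ⟨fun h => ?_, fun h => ?_, fun h => ?_, fun h => ?_, fun h => ?_⟩ <;> dsimp only at h
  · obtain rfl : a = b := sub_eq_zero.1 h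
    have := norm_sub_le a (a - e); simp [he] at this; linarith
  · obtain rfl : a = c := sub_eq_zero.1 h
    have := norm_sub_le (a + e) a; simp [he] at this; linarith
  · obtain rfl : c = b := sub_eq_zero.1 h
    have := norm_sub_le (c + e) (c - e)
    rw [show c + e - (c - e) = e + e by abel, two] at this; linarith
  · subst h; simp [he] at h3; linarith
  · obtain rfl : c = e := sub_eq_zero.1 h
    linarith

lemma GG_line {e : E} (he : ‖e‖ = 1) (a b c α γ : E) (t : ℝ)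
    (hq : ((a + t • α, b, c + t • γ) : E × E × E) ∈ ball ((0, e, -e) : E × E × E) (1 / 4)) :
    HasDerivAt (fun s : ℝ => GG e (a + s • α) b (c + s • γ))
      (⟪(Phi e (a + t • α, b, c + t • γ)).2.1, α⟫ + ⟪(Phi e (a + t • α, b, c + t • γ)).2.2, γ⟫) t := by
  obtain ⟨n1, n2, n3, n4, n5⟩ := near he hq
  dsimp only at n1 n2 n3 n4 n5
  have e1 : ∀ s : ℝ, a + s • α - b = (a - b) + s • α := fun s => by module
  have e2 : ∀ s : ℝ, a + s • α - (c + s • γ) = (a - c) + s • (α - γ) := fun s => by module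
  have e3 : ∀ s : ℝ, c + s • γ - b = (c - b) + s • γ := fun s => by module
  have e5 : ∀ s : ℝ, c + s • γ - e = (c - e) + s • γ := fun s => by module
  have e6 : ∀ s : ℝ, c + s • γ + e = (c + e) + s • γ := fun s => by module
  have d1 := line_hh (e1 t ▸ n1)
  have d2 := line_hh (e2 t ▸ n2)
  have d3 := line_hh (e3 t ▸ n3)
  have d4 := line_hh n4
  have d5 := line_hh (e5 t ▸ n5)
  have d6 := line_sq (c + e) γ t
  have d7 := line_sq a α t
  have h := (((d1.add d2).add d3).add (d7.const_mul 2)).sub ((d4.add d5).sub (d6.div_const 2))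
  refine (h.congr_deriv ?_).congr_of_eventuallyEq (Eventually.of_forall fun s => ?_)
  swap
  · simp only [GG, ww, Pi.add_apply, Pi.sub_apply, ← e1, ← e2, ← e3, ← e5, ← e6,
      norm_sub_rev b]
  · simp only [Phi, ← e1, ← e2, ← e3, ← e5, ← e6]
    rw [show c + t • γ - (a + t • α) = -(a + t • α - (c + t • γ)) by abel, kk_neg]
    simp only [inner_add_left, inner_sub_left, inner_neg_left, inner_sub_right,
      real_inner_smul_left]
    ring

lemma mono {e : E} (he : ‖e‖ = 1) : ∃ ρ > 0, ∀ a b c a' c' : E,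
    ((a, b, c) : E × E × E) ∈ ball ((0, e, -e) : E × E × E) ρ →
    ((a', b, c') : E × E × E) ∈ ball ((0, e, -e) : E × E × E) ρ →
    (Phi e (a', b, c')).2 = 0 → a ≠ a' ∨ c ≠ c' → GG e a' b c' < GG e a b c := by
  obtain ⟨D, hD, hD'⟩ := Phi_strict he
  obtain ⟨s, hs, ha⟩ := hD.approximates_deriv_on_nhds (c := 1 / 16) (Or.inr (by norm_num))
  obtain ⟨r, hr, hrs⟩ := Metric.mem_nhds_iff.1 hs
  refine ⟨min r (1 / 4), by positivity, fun a b c a' c' h1 h2 h0 hne => ?_⟩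
  set α := a - a' with hα
  set γ := c - c' with hγ
  have hseg : ∀ t ∈ Icc (0 : ℝ) 1, ((a' + t • α, b, c' + t • γ) : E × E × E) ∈
      ball ((0, e, -e) : E × E × E) (min r (1 / 4)) := fun t ht => by
    have := (convex_ball ((0, e, -e) : E × E × E) (min r (1 / 4))).add_smul_sub_mem h2 h1 ht
    simpa using this
  have hd := fun t (ht : t ∈ Icc (0 : ℝ) 1) =>
    GG_line he a' b c' α γ t (ball_subset_ball (min_le_right _ _) (hseg t ht))
  obtain ⟨t, ht, hm⟩ := exists_hasDerivAt_eq_slope (fun s : ℝ => GG e (a' + s • α) b (c' + s • γ))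
    _ zero_lt_one (fun t ht => (hd t ht).continuousAt.continuousWithinAt)
    (fun t ht => hd t (Ioo_subset_Icc_self ht))
  simp only [one_smul, zero_smul, add_zero, sub_zero, div_one, hα, hγ, add_sub_cancel] at hm
  rw [← sub_pos, ← hm, ← hα, ← hγ]
  have h3 := ha _ (hrs (ball_subset_ball (min_le_left _ _) (hseg t (Ioo_subset_Icc_self ht)))) _
    (hrs (ball_subset_ball (min_le_left _ _) h2))
  have e1 : ((a' + t • α, b, c' + t • γ) : E × E × E) - (a', b, c') = t • (α, 0, γ) := by simp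
  rw [e1, map_smul, hD', norm_smul, Real.norm_eq_abs, abs_of_pos ht.1] at h3
  set P := Phi e (a' + t • α, b, c' + t • γ)
  set R := P - Phi e (a', b, c') - t • DD e (α, 0, γ) with hR
  have r1 : P.2.1 = R.2.1 + t • (DD e (α, 0, γ)).2.1 := by simp [hR, h0]
  have r2 : P.2.2 = R.2.2 + t • (DD e (α, 0, γ)).2.2 := by simp [hR, h0]
  have q := quad he α γ
  rw [r1, r2, inner_add_left, inner_add_left, real_inner_smul_left, real_inner_smul_left]
  set M := ‖((α, 0, γ) : E × E × E)‖ with hM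
  have m1 : ‖α‖ ≤ M := norm_fst_le ((α, 0, γ) : E × E × E)
  have m2 : ‖γ‖ ≤ M := (norm_snd_le ((0, γ) : E × E)).trans (norm_snd_le ((α, 0, γ) : E × E × E))
  have m3 : M ^ 2 ≤ ‖α‖ ^ 2 + ‖γ‖ ^ 2 := by
    rw [hM]; simp only [Prod.norm_mk, norm_zero, max_eq_right (norm_nonneg γ)]
    rcases le_total ‖α‖ ‖γ‖ with h | h
    · rw [max_eq_right h]; nlinarith [sq_nonneg ‖α‖]
    · rw [max_eq_left h]; nlinarith [sq_nonneg ‖γ‖]
  have m0 : 0 < M := norm_pos_iff.2 (by
    intro h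
    simp only [Prod.mk_eq_zero, hα, hγ, sub_eq_zero] at h
    tauto)
  have s1 : ‖R.2.1‖ ≤ ‖R‖ := (norm_fst_le R.2).trans (norm_snd_le R)
  have s2 : ‖R.2.2‖ ≤ ‖R‖ := (norm_snd_le R.2).trans (norm_snd_le R)
  have i1 : -(‖R‖ * M) ≤ ⟪R.2.1, α⟫ := (neg_le_neg (mul_le_mul s1 m1 (norm_nonneg _)
    (norm_nonneg _))).trans (neg_le_of_abs_le (abs_real_inner_le_norm _ _))
  have i2 : -(‖R‖ * M) ≤ ⟪R.2.2, γ⟫ := (neg_le_neg (mul_le_mul s2 m2 (norm_nonneg _)
    (norm_nonneg _))).trans (neg_le_of_abs_le (abs_real_inner_le_norm _ _))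
  have i3 : ‖R‖ * M ≤ 1 / 16 * (t * M) * M := by
    refine mul_le_mul_of_nonneg_right (h3.trans (le_of_eq ?_)) m0.le
    norm_num
  have i4 : 0 < t * M ^ 2 := by have := ht.1; positivity
  nlinarith [mul_le_mul_of_nonneg_left q ht.1.le, mul_le_mul_of_nonneg_left m3 ht.1.le]

end Vale.Agent.P121
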